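import Vale.Agent.P140.Defs

namespace Vale.Agent.P140

open MeasureTheory Real

theorem isFiniteMeasure_torus : IsFiniteMeasure (volume : Measure Torus3) := by
  rw [volume_pi]; infer_instance

variable {F : Phase → ℝ}

theorem FiniteMassEnergyEntropy.integrable_self (h : FiniteMassEnergyEntropy F) :
    Integrable F volume := by
  refine h.integrable.mono h.meas ?_
  filter_upwards with z
  rw [norm_mul]
  have h1 : (1 : ℝ) ≤ ‖(1 + ‖z.2‖ ^ 2 + |Real.log (F z)|)‖ := by
    rw [Real.norm_eq_abs, abs_of_nonneg (by positivity)]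
    have := abs_nonneg (Real.log (F z))
    have := sq_nonneg ‖z.2‖
    linarith
  nlinarith [norm_nonneg (F z)]

theorem aesm_normsq : AEStronglyMeasurable (fun z : Phase => ‖z.2‖ ^ 2) volume :=
  (by fun_prop : Continuous (fun z : Phase => ‖z.2‖ ^ 2)).aestronglyMeasurable

theorem FiniteMassEnergyEntropy.integrable_energy (h : FiniteMassEnergyEntropy F) :
    Integrable (fun z : Phase => ‖z.2‖ ^ 2 * F z) volume := by
  refine h.integrable.mono (aesm_normsq.mul h.meas) ?_
  filter_upwards with z
  rw [norm_mul, norm_mul, mul_comm]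
  apply mul_le_mul_of_nonneg_left _ (norm_nonneg _)
  rw [Real.norm_eq_abs, Real.norm_eq_abs, abs_of_nonneg (by positivity),
    abs_of_nonneg (by positivity)]
  have := abs_nonneg (Real.log (F z))
  linarith

theorem FiniteMassEnergyEntropy.integrable_mul_log (h : FiniteMassEnergyEntropy F) :
    Integrable (fun z : Phase => F z * Real.log (F z)) volume := by
  refine h.integrable.mono (h.meas.mul h.meas.aemeasurable.log.aestronglyMeasurable) ?_
  filter_upwards with z
  rw [norm_mul, norm_mul]
  apply mul_le_mul_of_nonneg_left _ (norm_nonneg _)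
  rw [Real.norm_eq_abs, Real.norm_eq_abs, abs_of_nonneg (a := 1 + _ + _) (by positivity)]
  have := sq_nonneg ‖z.2‖
  linarith

theorem FiniteMassEnergyEntropy.integrable_momentum (h : FiniteMassEnergyEntropy F) :
    Integrable (fun z : Phase => F z • z.2) volume := by
  refine h.integrable.mono (h.meas.smul
    (by fun_prop : Continuous (fun z : Phase => z.2)).aestronglyMeasurable) ?_
  filter_upwards with z
  rw [norm_smul, norm_mul]
  apply mul_le_mul_of_nonneg_left _ (norm_nonneg _)
  rw [Real.norm_eq_abs, abs_of_nonneg (a := 1 + _ + _) (by positivity)]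
  have := abs_nonneg (Real.log (F z))
  nlinarith [sq_nonneg (‖z.2‖ - 1)]

end Vale.Agent.P140
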