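import Mathlib

namespace Vale.Agent.P140

open MeasureTheory

/-- The flat torus `T^3 = R^3 / Z^3` (with its normalised Haar measure as `volume`). -/
abbrev Torus3 := Fin 3 → UnitAddCircle

/-- Velocity space `R^3` with the Euclidean norm and Lebesgue measure. -/
abbrev Vel := EuclideanSpace ℝ (Fin 3)

/-- Phase space `Ω = T^3_x × R^3_v` with the product measure. -/
abbrev Phase := Torus3 × Vel

/-- The global Maxwellian with density `ρ`, bulk velocity `u` and temperature `θ`. -/
noncomputable def maxwellian (ρ : ℝ) (u : Vel) (θ : ℝ) (v : Vel) : ℝ :=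
  ρ * (2 * Real.pi * θ) ^ (-(3 / 2 : ℝ)) * Real.exp (-‖v - u‖ ^ 2 / (2 * θ))

/-- The reference Maxwellian `M(v) = (2π)^(-3/2) exp(-|v|^2/2)`. -/
noncomputable def stdMaxwellian (v : Vel) : ℝ :=
  (2 * Real.pi) ^ (-(3 / 2 : ℝ)) * Real.exp (-‖v‖ ^ 2 / 2)

/-- The relative entropy `∫_Ω (F log (F/N) - F + N)` with respect to a velocity profile `N`. -/
noncomputable def relEntropyTo (N : Vel → ℝ) (F : Phase → ℝ) : ℝ :=
  ∫ z, (F z * Real.log (F z / N z.2) - F z + N z.2)

/-- `H_M(F) = ∫_Ω (F log (F/M) - F + M)`. -/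
noncomputable def relEntropy (F : Phase → ℝ) : ℝ := relEntropyTo stdMaxwellian F

/-- The integrability class of the problem: `F ≥ 0` measurable with
`∫_Ω F (1 + |v|^2 + |log F|) < ∞`. -/
structure FiniteMassEnergyEntropy (F : Phase → ℝ) : Prop where
  meas : AEStronglyMeasurable F volume
  nonneg : ∀ᵐ z ∂(volume : Measure Phase), 0 ≤ F z
  integrable : Integrable (fun z : Phase => F z * (1 + ‖z.2‖ ^ 2 + |Real.log (F z)|)) volume

/-- The a-priori bounds contained in conditions (i) and (iii) of the definition of a renormalized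
entropy solution `F` with datum `F0`: the integrability class at each time, conservation of total
mass (the `x`-integrated form of the balance `B_1`) and of total momentum, the energy inequality,
and the entropy inequality with the nonnegative dissipation term dropped. -/
structure EntropyAdmissible (F0 : Phase → ℝ) (F : ℝ → Phase → ℝ) : Prop where
  cls : ∀ t : ℝ, 0 ≤ t → FiniteMassEnergyEntropy (F t)
  mass : ∀ t : ℝ, 0 ≤ t → ∫ z, F t z = ∫ z, F0 z
  momentum : ∀ t : ℝ, 0 ≤ t → ∫ z : Phase, F t z • z.2 = ∫ z : Phase, F0 z • z.2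
  energy : ∀ t : ℝ, 0 ≤ t → ∫ z : Phase, ‖z.2‖ ^ 2 * F t z ≤ ∫ z : Phase, ‖z.2‖ ^ 2 * F0 z
  entropy : ∀ t : ℝ, 0 ≤ t → relEntropy (F t) ≤ relEntropy F0

end Vale.Agent.P140
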