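import Vale.Agent.P140.Gauss

namespace Vale.Agent.P140

open MeasureTheory Real

variable {F : Phase → ℝ}

theorem integrand_expand (ρ : ℝ) (hρ : 0 < ρ) (u : Vel) (θ : ℝ) (hθ : 0 < θ) (a : ℝ) (ha : 0 ≤ a)
    (v : Vel) :
    a * Real.log (a / maxwellian ρ u θ v) - a + maxwellian ρ u θ v =
      a * Real.log a - (logConst ρ u θ + 1) * a + (1 / (2 * θ)) * (‖v‖ ^ 2 * a)
        - (1 / θ) * inner ℝ u (a • v) + maxwellian ρ u θ v := by
  rcases ha.eq_or_lt with h | h
  · subst h; simp
  · rw [Real.log_div h.ne' (maxwellian_pos ρ hρ u θ hθ v).ne', log_maxwellian ρ hρ u θ hθ v,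
      inner_smul_right]
    ring

theorem relEntropyTo_expand (ρ : ℝ) (hρ : 0 < ρ) (u : Vel) (θ : ℝ) (hθ : 0 < θ)
    (h : FiniteMassEnergyEntropy F) :
    relEntropyTo (maxwellian ρ u θ) F =
      (∫ z, F z * Real.log (F z)) - (logConst ρ u θ + 1) * (∫ z, F z)
        + (1 / (2 * θ)) * (∫ z : Phase, ‖z.2‖ ^ 2 * F z)
        - (1 / θ) * inner ℝ u (∫ z : Phase, F z • z.2)
        + ∫ z : Phase, maxwellian ρ u θ z.2 := by
  unfold relEntropyTo
  have h1 := h.integrable_mul_log
  have h2 := h.integrable_self.const_mul (logConst ρ u θ + 1)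
  have h3 := h.integrable_energy.const_mul (1 / (2 * θ))
  have h4' : Integrable (fun z : Phase => inner ℝ u (F z • z.2)) volume :=
    h.integrable_momentum.const_inner u
  have h4 := h4'.const_mul (1 / θ)
  have h5 := integrable_maxwellian_phase ρ u θ hθ
  have hcongr : (∫ z : Phase, (F z * Real.log (F z / maxwellian ρ u θ z.2) - F z
      + maxwellian ρ u θ z.2)) =
      ∫ z : Phase, (F z * Real.log (F z) - (logConst ρ u θ + 1) * F z
        + (1 / (2 * θ)) * (‖z.2‖ ^ 2 * F z) - (1 / θ) * inner ℝ u (F z • z.2)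
        + maxwellian ρ u θ z.2) := by
    apply integral_congr_ae
    filter_upwards [h.nonneg] with z hz
    exact integrand_expand ρ hρ u θ hθ (F z) hz z.2
  have H12 : Integrable (fun z : Phase => F z * Real.log (F z) - (logConst ρ u θ + 1) * F z)
      volume := h1.sub h2
  have H123 : Integrable (fun z : Phase => F z * Real.log (F z) - (logConst ρ u θ + 1) * F z
        + (1 / (2 * θ)) * (‖z.2‖ ^ 2 * F z)) volume := H12.add h3
  have H1234 : Integrable (fun z : Phase => F z * Real.log (F z) - (logConst ρ u θ + 1) * F z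
        + (1 / (2 * θ)) * (‖z.2‖ ^ 2 * F z) - (1 / θ) * inner ℝ u (F z • z.2)) volume :=
    H123.sub h4
  rw [hcongr, integral_add H1234 h5, integral_sub H123 h4, integral_add H12 h3,
    integral_sub h1 h2, integral_const_mul, integral_const_mul, integral_const_mul,
    integral_inner h.integrable_momentum]

theorem integrable_relEntropyTo_integrand (ρ : ℝ) (hρ : 0 < ρ) (u : Vel) (θ : ℝ) (hθ : 0 < θ)
    (h : FiniteMassEnergyEntropy F) :
    Integrable (fun z : Phase => F z * Real.log (F z / maxwellian ρ u θ z.2) - F z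
      + maxwellian ρ u θ z.2) volume := by
  have h1 := h.integrable_mul_log
  have h2 := h.integrable_self.const_mul (logConst ρ u θ + 1)
  have h3 := h.integrable_energy.const_mul (1 / (2 * θ))
  have h4' : Integrable (fun z : Phase => inner ℝ u (F z • z.2)) volume :=
    h.integrable_momentum.const_inner u
  have h4 := h4'.const_mul (1 / θ)
  have h5 := integrable_maxwellian_phase ρ u θ hθ
  refine ((((h1.sub h2).add h3).sub h4).add h5).congr ?_
  filter_upwards [h.nonneg] with z hz
  exact (integrand_expand ρ hρ u θ hθ (F z) hz z.2).symm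

end Vale.Agent.P140
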