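import Vale.Agent.P140.Basic

namespace Vale.Agent.P140

open MeasureTheory Real

theorem integrable_gauss (b : ℝ) (hb : 0 < b) :
    Integrable (fun v : Vel => Real.exp (-b * ‖v‖ ^ 2)) volume := by
  have h := GaussianFourier.integrable_cexp_neg_mul_sq_norm_add (V := Vel) (b := (b : ℂ))
    (by simpa using hb) 0 0
  have h2 := h.norm
  refine h2.congr ?_
  filter_upwards with v
  rw [Complex.norm_exp]
  congr 1
  simp [pow_two]

theorem integrable_gauss_shift (b : ℝ) (hb : 0 < b) (u : Vel) :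
    Integrable (fun v : Vel => Real.exp (-b * ‖v - u‖ ^ 2)) volume :=
  (integrable_gauss b hb).comp_sub_right u

theorem maxwellian_eq (ρ : ℝ) (u : Vel) (θ : ℝ) (v : Vel) :
    maxwellian ρ u θ v = ρ * (2 * Real.pi * θ) ^ (-(3 / 2 : ℝ)) *
      Real.exp (-(1 / (2 * θ)) * ‖v - u‖ ^ 2) := by
  unfold maxwellian
  congr 2
  ring

theorem integrable_maxwellian (ρ : ℝ) (u : Vel) (θ : ℝ) (hθ : 0 < θ) :
    Integrable (maxwellian ρ u θ) volume := by
  have h := (integrable_gauss_shift (1 / (2 * θ)) (by positivity) u).const_mul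
    (ρ * (2 * Real.pi * θ) ^ (-(3 / 2 : ℝ)))
  refine h.congr ?_
  filter_upwards with v
  rw [maxwellian_eq]

theorem integrable_maxwellian_phase (ρ : ℝ) (u : Vel) (θ : ℝ) (hθ : 0 < θ) :
    Integrable (fun z : Phase => maxwellian ρ u θ z.2) volume := by
  have := isFiniteMeasure_torus
  exact (integrable_maxwellian ρ u θ hθ).comp_snd (volume : Measure Torus3)

theorem stdMaxwellian_eq : stdMaxwellian = maxwellian 1 0 1 := by
  funext v
  unfold stdMaxwellian maxwellian
  simp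

theorem maxwellian_pos (ρ : ℝ) (hρ : 0 < ρ) (u : Vel) (θ : ℝ) (hθ : 0 < θ) (v : Vel) :
    0 < maxwellian ρ u θ v := by
  unfold maxwellian
  positivity

/-- the constant in `log N`. -/
noncomputable def logConst (ρ : ℝ) (u : Vel) (θ : ℝ) : ℝ :=
  Real.log (ρ * (2 * Real.pi * θ) ^ (-(3 / 2 : ℝ))) - ‖u‖ ^ 2 / (2 * θ)

theorem log_maxwellian (ρ : ℝ) (hρ : 0 < ρ) (u : Vel) (θ : ℝ) (hθ : 0 < θ) (v : Vel) :
    Real.log (maxwellian ρ u θ v) =
      logConst ρ u θ - (1 / (2 * θ)) * ‖v‖ ^ 2 + (1 / θ) * inner ℝ u v := by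
  unfold maxwellian logConst
  rw [Real.log_mul (by positivity) (by positivity), Real.log_exp, norm_sub_sq_real,
    real_inner_comm]
  field_simp
  ring

end Vale.Agent.P140
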