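import Vale.Agent.P140.Expand

namespace Vale.Agent.P140

open MeasureTheory Real

theorem continuous_maxwellian (ρ : ℝ) (u : Vel) (θ : ℝ) : Continuous (maxwellian ρ u θ) := by
  unfold maxwellian
  fun_prop

theorem maxwellian_class_vel (ρ : ℝ) (hρ : 0 < ρ) (u : Vel) (θ : ℝ) (hθ : 0 < θ) :
    Integrable (fun v : Vel => maxwellian ρ u θ v *
      (1 + ‖v‖ ^ 2 + |Real.log (maxwellian ρ u θ v)|)) volume := by
  set κ : ℝ := ρ * (2 * Real.pi * θ) ^ (-(3 / 2 : ℝ)) with hκ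
  have hκpos : 0 < κ := by positivity
  set c1 : ℝ := 1 + 2 * ‖u‖ ^ 2 + |Real.log κ| with hc1
  set c2 : ℝ := 4 * θ + 1 with hc2
  have hc1pos : 0 ≤ c1 := by positivity
  have hc2pos : 0 ≤ c2 := by positivity
  have hg : Integrable (fun v : Vel => κ * c1 * Real.exp (-(1 / (2 * θ)) * ‖v - u‖ ^ 2)
      + 2 * κ * c2 * Real.exp (-(1 / (4 * θ)) * ‖v - u‖ ^ 2)) volume :=
    ((integrable_gauss_shift (1 / (2 * θ)) (by positivity) u).const_mul _).add
      ((integrable_gauss_shift (1 / (4 * θ)) (by positivity) u).const_mul _)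
  have hcont : Continuous (fun v : Vel => maxwellian ρ u θ v *
      (1 + ‖v‖ ^ 2 + |Real.log (maxwellian ρ u θ v)|)) := by
    have h1 := continuous_maxwellian ρ u θ
    have h2 : Continuous (fun v : Vel => Real.log (maxwellian ρ u θ v)) :=
      h1.log (fun v => (maxwellian_pos ρ hρ u θ hθ v).ne')
    fun_prop
  refine hg.mono' hcont.aestronglyMeasurable ?_
  filter_upwards with v
  set t : ℝ := (1 / (2 * θ)) * ‖v - u‖ ^ 2 with ht
  have ht0 : 0 ≤ t := by positivity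
  have hM : maxwellian ρ u θ v = κ * Real.exp (-t) := by
    rw [maxwellian_eq, ht, hκ]; congr 2; ring
  have hlog : Real.log (maxwellian ρ u θ v) = Real.log κ - t := by
    rw [hM, Real.log_mul hκpos.ne' (Real.exp_pos _).ne', Real.log_exp]; ring
  have habs : |Real.log (maxwellian ρ u θ v)| ≤ |Real.log κ| + t := by
    rw [hlog]
    calc |Real.log κ - t| ≤ |Real.log κ| + |t| := abs_sub _ _
      _ = |Real.log κ| + t := by rw [abs_of_nonneg ht0]
  have hv : ‖v‖ ^ 2 ≤ 4 * θ * t + 2 * ‖u‖ ^ 2 := by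
    have h1 : ‖v‖ ≤ ‖v - u‖ + ‖u‖ := by
      calc ‖v‖ = ‖(v - u) + u‖ := by rw [sub_add_cancel]
        _ ≤ _ := norm_add_le _ _
    have h2 : 4 * θ * t = 2 * ‖v - u‖ ^ 2 := by rw [ht]; field_simp; ring
    rw [h2]
    have h3 : ‖v‖ ^ 2 ≤ (‖v - u‖ + ‖u‖) ^ 2 := pow_le_pow_left₀ (norm_nonneg _) h1 2
    nlinarith [sq_nonneg (‖v - u‖ - ‖u‖)]
  have hexp2 : Real.exp (-(1 / (4 * θ)) * ‖v - u‖ ^ 2) = Real.exp (-(t / 2)) := by
    congr 1; rw [ht]; field_simp; ring
  have hexp1 : Real.exp (-(1 / (2 * θ)) * ‖v - u‖ ^ 2) = Real.exp (-t) := by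
    congr 1; rw [ht]; ring
  rw [hexp1, hexp2, hM, Real.norm_eq_abs, abs_of_nonneg (by positivity)]
  have hte : t * Real.exp (-t) ≤ 2 * Real.exp (-(t / 2)) := by
    have h1 : t / 2 + 1 ≤ Real.exp (t / 2) := Real.add_one_le_exp _
    have h2 : Real.exp (-t) = Real.exp (-(t / 2)) * Real.exp (-(t / 2)) := by
      rw [← Real.exp_add]; congr 1; ring
    have h3 : Real.exp (t / 2) * Real.exp (-(t / 2)) = 1 := by
      rw [← Real.exp_add]; simp
    have h4 : 0 < Real.exp (-(t / 2)) := Real.exp_pos _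
    have h5 : t * Real.exp (-(t / 2)) ≤ 2 := by
      have : t * Real.exp (-(t / 2)) ≤ 2 * (Real.exp (t / 2) * Real.exp (-(t / 2))) := by
        nlinarith
      linarith
    rw [h2]
    nlinarith
  have hsum : 1 + ‖v‖ ^ 2 + |Real.log (κ * Real.exp (-t))| ≤ c1 + c2 * t := by
    rw [← hM, hc1, hc2]; nlinarith
  have hexpos : 0 < Real.exp (-t) := Real.exp_pos _
  calc κ * Real.exp (-t) * (1 + ‖v‖ ^ 2 + |Real.log (κ * Real.exp (-t))|)
      ≤ κ * Real.exp (-t) * (c1 + c2 * t) :=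
        mul_le_mul_of_nonneg_left hsum (by positivity)
    _ = κ * c1 * Real.exp (-t) + κ * c2 * (t * Real.exp (-t)) := by ring
    _ ≤ κ * c1 * Real.exp (-t) + κ * c2 * (2 * Real.exp (-(t / 2))) := by
        have : 0 ≤ κ * c2 := by positivity
        nlinarith
    _ = κ * c1 * Real.exp (-t) + 2 * κ * c2 * Real.exp (-(t / 2)) := by ring

theorem maxwellian_class (ρ : ℝ) (hρ : 0 < ρ) (u : Vel) (θ : ℝ) (hθ : 0 < θ) :
    FiniteMassEnergyEntropy (fun z : Phase => maxwellian ρ u θ z.2) where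
  meas := ((continuous_maxwellian ρ u θ).comp continuous_snd).aestronglyMeasurable
  nonneg := Filter.Eventually.of_forall (fun z => (maxwellian_pos ρ hρ u θ hθ z.2).le)
  integrable := by
    have := isFiniteMeasure_torus
    exact (maxwellian_class_vel ρ hρ u θ hθ).comp_snd (volume : Measure Torus3)

end Vale.Agent.P140
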