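import Vale.Agent.P140.MaxwellianClass

namespace Vale.Agent.P140

open MeasureTheory Real

/-- Relative entropy with respect to any Maxwellian of temperature at most one is nonincreasing. -/
theorem relEntropyTo_le (F0 : Phase → ℝ) (F : ℝ → Phase → ℝ) (h0 : FiniteMassEnergyEntropy F0)
    (h : EntropyAdmissible F0 F) (ρ : ℝ) (hρ : 0 < ρ) (u : Vel) (θ : ℝ) (hθ : 0 < θ) (hθ1 : θ ≤ 1)
    (t : ℝ) (ht : 0 ≤ t) :
    relEntropyTo (maxwellian ρ u θ) (F t) ≤ relEntropyTo (maxwellian ρ u θ) F0 := by
  have e1 := relEntropyTo_expand ρ hρ u θ hθ (h.cls t ht)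
  have e2 := relEntropyTo_expand ρ hρ u θ hθ h0
  have e3 := relEntropyTo_expand 1 one_pos 0 1 one_pos (h.cls t ht)
  have e4 := relEntropyTo_expand 1 one_pos 0 1 one_pos h0
  have hent := h.entropy t ht
  unfold relEntropy at hent
  rw [stdMaxwellian_eq, e3, e4] at hent
  rw [e1, e2]
  rw [h.mass t ht, h.momentum t ht] at *
  have hen := h.energy t ht
  have hcoef : 1 / (2 * 1 : ℝ) ≤ 1 / (2 * θ) := by
    apply one_div_le_one_div_of_le (by positivity) (by linarith)
  nlinarith

theorem klIntegrand_nonneg (a b : ℝ) (ha : 0 ≤ a) (hb : 0 < b) :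
    0 ≤ a * Real.log (a / b) - a + b := by
  have h := InformationTheory.klFun_nonneg (x := a / b) (by positivity)
  have h2 : a * Real.log (a / b) - a + b = b * InformationTheory.klFun (a / b) := by
    unfold InformationTheory.klFun; field_simp; ring
  rw [h2]; positivity

theorem klIntegrand_eq_zero (a b : ℝ) (ha : 0 ≤ a) (hb : 0 < b)
    (h : a * Real.log (a / b) - a + b = 0) : a = b := by
  have h2 : a * Real.log (a / b) - a + b = b * InformationTheory.klFun (a / b) := by
    unfold InformationTheory.klFun; field_simp; ring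
  rw [h2] at h
  have h3 : InformationTheory.klFun (a / b) = 0 := by
    rcases mul_eq_zero.mp h with h | h
    · exact absurd h hb.ne'
    · exact h
  have h4 := (InformationTheory.klFun_eq_zero_iff (x := a / b) (by positivity)).mp h3
  field_simp at h4
  exact h4

theorem relEntropyTo_self (N : Vel → ℝ) (hN : ∀ v, 0 < N v) :
    relEntropyTo N (fun z : Phase => N z.2) = 0 := by
  unfold relEntropyTo
  have : ∀ z : Phase, N z.2 * Real.log (N z.2 / N z.2) - N z.2 + N z.2 = 0 := by
    intro z
    rw [div_self (hN z.2).ne']; simp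
  simp

/-- Uniqueness for Maxwellian data of temperature at most one. -/
theorem maxwellian_unique (ρ : ℝ) (hρ : 0 < ρ) (u : Vel) (θ : ℝ) (hθ : 0 < θ) (hθ1 : θ ≤ 1)
    (F : ℝ → Phase → ℝ) (h : EntropyAdmissible (fun z : Phase => maxwellian ρ u θ z.2) F)
    (t : ℝ) (ht : 0 ≤ t) :
    F t =ᵐ[volume] (fun z : Phase => maxwellian ρ u θ z.2) := by
  have h0 := maxwellian_class ρ hρ u θ hθ
  have hle := relEntropyTo_le _ F h0 h ρ hρ u θ hθ hθ1 t ht
  rw [relEntropyTo_self _ (maxwellian_pos ρ hρ u θ hθ)] at hle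
  have hint := integrable_relEntropyTo_integrand ρ hρ u θ hθ (h.cls t ht)
  have hnn : 0 ≤ᵐ[volume] (fun z : Phase => F t z * Real.log (F t z / maxwellian ρ u θ z.2)
      - F t z + maxwellian ρ u θ z.2) := by
    filter_upwards [(h.cls t ht).nonneg] with z hz
    exact klIntegrand_nonneg _ _ hz (maxwellian_pos ρ hρ u θ hθ z.2)
  have hzero : ∫ z : Phase, (F t z * Real.log (F t z / maxwellian ρ u θ z.2)
      - F t z + maxwellian ρ u θ z.2) = 0 :=
    le_antisymm hle (integral_nonneg_of_ae hnn)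
  have hae := (integral_eq_zero_iff_of_nonneg_ae hnn hint).mp hzero
  filter_upwards [hae, (h.cls t ht).nonneg] with z hz hz0
  exact klIntegrand_eq_zero _ _ hz0 (maxwellian_pos ρ hρ u θ hθ z.2) hz

end Vale.Agent.P140
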